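import Vale.Agent.Lib.P064.LogFinal

/-!
P064 (second Kahn-Kalai conjecture): for EVERY graph `H`, the threshold is at most a constant
times `p_E(n,H) log^2 n`, which improves the general `log^3 n` bound by a logarithmic factor.

Let `n ≥ 2` and let `H` be any graph with at least one edge and at most `n` vertices.  Then
`p_c(n,H) ≤ 22500 p_E(n,H) log^2 n` and `p~_E(n,H) ≤ 650 p_E(n,H) log n`.  Moreover, if `q > 0`
and every subgraph of `H` has expected count at least `1/2` in `G(n,q)`, then EVERY graph `S`
satisfies `N(H,S) ≤ E N(G(n, min(1, 650 q log n)), S)`.

Reason: a counting theorem.  If every subgraph of `H` has expected count at least `1/2` in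
`G(n,q)` and `n ≤ 2^L`, then every graph `K` has at most `n^{v(K)} (20 (L+1) q)^{e(K)}`
embeddings into `H`.  The vertices of `K` are added along a chain of vertex sets, each an
inclusion-minimal minimiser of the weight `n^|Z| (2q)^{e(K[Z])}` among the proper supersets of
the previous one.  Every block of the chain has all its proper parts rigid (weight ratio below
one); rigid structures have few extensions (the union of the edge images of all extensions of a
pinned map is a subgraph of `H`, whose expected count bounds its size, and an averaging over the
boundary finds a vertex with at most `L + 1` images), and a block itself is counted by a maximal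
family of extensions with pairwise disjoint images (a sunflower, bounded again by the expected
count of its union).  The spread lemma then turns the counting bound into the threshold bound.
-/

namespace Vale.Agent.Results.P064.AllGraphsLogSquared

open Vale.Agent.Lib.P064

theorem result (n : ℕ) (hn : 2 ≤ n) {W : Type} [Fintype W] (H : SimpleGraph W)
    (hW : Fintype.card W ≤ n) (hH : ∃ a b, H.Adj a b) :
    pc n H ≤ 22500 * pE n H * Real.log n ^ 2 ∧
      pEt n H ≤ 650 * pE n H * Real.log n ∧
      ∀ q : ℝ, 0 < q →
        (∀ F : H.Subgraph, 1 / 2 ≤ gnpExp n q (fun G => (G.copyCount F.coe : ℝ))) →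
        ∀ (V : Type) [Fintype V] (S : SimpleGraph V),
          (H.copyCount S : ℝ)
            ≤ gnpExp n (min 1 (650 * q * Real.log n)) (fun G => (G.copyCount S : ℝ)) :=
  ⟨pc_le_log_sq_all n hn H hW hH, pEt_le_log_all n hn H hW hH,
    fun q hq0 hq _ _ S => copyCount_le_gnpExp_log n hn H hW q hq0 hq S⟩

end Vale.Agent.Results.P064.AllGraphsLogSquared
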