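import Vale.Agent.Lib.P064.BddPc

/-!
P064 (second Kahn-Kalai conjecture): the conjectured bound `p_c ≤ C p_E log n` for graphs of
bounded maximum degree.

Let `n ≥ 2` and let `H` be a graph with at least one edge, at most `n` vertices and all degrees at
most `D`.  Then `p_E(n,H) ≤ p_c(n,H) ≤ 2600 D p_E(n,H) log n`, and more precisely
`p_c(n,H) ≤ 888 D (⌊log_2 e(H)⌋ + 1) p_E(n,H)`.

The proof combines the counting inequality `N(H,F) ≤ E N(G(n, 74 D q), F)` for all graphs `F`
(hosts of maximum degree at most `D`, `q` admissible for `p_E`), which makes the uniform measure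
on the embeddings of `H` into the complete graph `74 D p_E`-spread, with a proof of the spread
lemma by minimum fragments.
-/

namespace Vale.Agent.Results.P064.BoundedDegreeKahnKalai

open Vale.Agent.Lib.P064

theorem result (n : ℕ) (hn : 2 ≤ n) {W : Type} [Fintype W] (H : SimpleGraph W)
    (hW : Fintype.card W ≤ n) (hH : ∃ a b, H.Adj a b) (D : ℕ)
    (hD : ∀ w : W, (H.neighborSet w).ncard ≤ D) :
    pE n H ≤ pc n H ∧ pc n H ≤ 2600 * D * pE n H * Real.log n ∧
      pc n H ≤ 888 * D * ((Nat.log 2 H.edgeSet.ncard + 1 : ℕ) : ℝ) * pE n H :=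
  ⟨pE_le_pc n H hW, pc_le_log n hn H hW hH D hD, pc_le_of_degree n (by omega) H hW hH D hD⟩

end Vale.Agent.Results.P064.BoundedDegreeKahnKalai
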