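import Vale.Agent.Lib.P064.ForFinal

/-!
P064 (second Kahn-Kalai conjecture): the conjectured bound `p_c ≤ C p_E log n` for EVERY forest,
with a universal constant, and the counting inequality behind it for all pattern graphs.

Let `n ≥ 2` and let `H` be a forest (an acyclic graph, of arbitrary degrees) with at least one
edge and at most `n` vertices.  Then `p_c(n,H) ≤ 2600000 p_E(n,H) log n` and
`p~_E(n,H) ≤ 74000 p_E(n,H)`.  Moreover, if `q > 0` and every subgraph of `H` has expected
count at least `1/2` in `G(n,q)`, then EVERY graph `S` satisfies
`N(H,S) ≤ E N(G(n, min(1, 74000 q)), S)`.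

Reason: a counting theorem.  Root every component of `H`.  With `Λ = 1000 n q`, give every
vertex `x` the weight `wt(x) = max_m m! e_m(wt on the children of x) / Λ^m`; a tree `S` has at
most `v(S) Λ^{e(S)} ∑_x wt(x)` embeddings into `H`.  A vertex of weight larger than one is
rich; its pruned cluster consists of the clusters of its rich children and, if it has more than
`Λ/2` poor children, of all of them.  Rich vertices with isomorphic pruned clusters have
pairwise disjoint clusters, so the expected count of their union bounds the size of the class
by `6 n c^e / A` (`c = n q`, `e` edges, `A` rooted automorphisms).  The exponential formula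
sums these class bounds, weighted by upper bounds for the weights, to at most `n / 40`, so
`∑_x wt(x) ≤ 2n`.  The spread lemma turns the counting bound into the threshold bound.
-/

namespace Vale.Agent.Results.P064.ForestKahnKalai

open Vale.Agent.Lib.P064

theorem result (n : ℕ) (hn : 2 ≤ n) {W : Type} [Fintype W] (H : SimpleGraph W)
    (hacyc : H.IsAcyclic) (hW : Fintype.card W ≤ n) (hH : ∃ a b, H.Adj a b) :
    pc n H ≤ 2600000 * pE n H * Real.log n ∧
      pEt n H ≤ 74000 * pE n H ∧
      ∀ q : ℝ, 0 < q →
        (∀ F : H.Subgraph, 1 / 2 ≤ gnpExp n q (fun G => (G.copyCount F.coe : ℝ))) →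
        ∀ (V : Type) [Fintype V] (S : SimpleGraph V),
          (H.copyCount S : ℝ)
            ≤ gnpExp n (min 1 (74000 * q)) (fun G => (G.copyCount S : ℝ)) :=
  ⟨pc_le_log_forest n hn H hacyc hW hH, pEt_le_forest n H hacyc hW hH,
    fun q hq0 hq _ _ S => copyCount_le_gnpExp_forest n H hacyc hW hH q hq0 hq S⟩

end Vale.Agent.Results.P064.ForestKahnKalai
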