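import Vale.Agent.Lib.P064.ForFinal
import Vale.Agent.Lib.P064.LogFinal
import Vale.Agent.Lib.P064.BddPc

/-!
P064 (second Kahn-Kalai conjecture): three threshold bounds in one statement.

Let `n ≥ 2` and let `H` be a graph with at least one edge and at most `n` vertices.

* For EVERY such `H`: `p_c(n,H) ≤ 22500 p_E(n,H) log^2 n` and `p~_E(n,H) ≤ 650 p_E(n,H) log n`
  (the listed general bounds are `log^3 n` and `log^2 n`).
* If `H` is a forest (degrees unrestricted): `p_c(n,H) ≤ 2600 * 1000 p_E(n,H) log n` and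
  `p~_E(n,H) ≤ 74000 p_E(n,H)`, that is, the conjectured bound with a universal constant.
* If all degrees of `H` are at most `D`: `p_c(n,H) ≤ 2600 D p_E(n,H) log n` and
  `p~_E(n,H) ≤ 74 D p_E(n,H)`, that is, the conjectured bound for bounded degree.

Each part comes from a counting theorem for the embeddings of an arbitrary pattern graph into
`H` (see the files `LogMain`, `ForMain` and `BddHost` of the library), which makes the uniform
measure on the copies of `H` in the complete graph spread, and from the spread lemma.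
-/

namespace Vale.Agent.Results.P064.ThresholdBounds

open Vale.Agent.Lib.P064

theorem result (n : ℕ) (hn : 2 ≤ n) {W : Type} [Fintype W] (H : SimpleGraph W)
    (hW : Fintype.card W ≤ n) (hH : ∃ a b, H.Adj a b) :
    (pc n H ≤ 22500 * pE n H * Real.log n ^ 2 ∧ pEt n H ≤ 650 * pE n H * Real.log n) ∧
      (H.IsAcyclic →
        pc n H ≤ 2600 * 1000 * pE n H * Real.log n ∧ pEt n H ≤ 74000 * pE n H) ∧
      (∀ D : ℕ, (∀ w : W, (H.neighborSet w).ncard ≤ D) →
        pc n H ≤ 2600 * D * pE n H * Real.log n ∧ pEt n H ≤ 74 * D * pE n H) := by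
  refine ⟨⟨pc_le_log_sq_all n hn H hW hH, pEt_le_log_all n hn H hW hH⟩,
    fun hacyc => ⟨?_, pEt_le_forest n H hacyc hW hH⟩,
    fun D hD => ⟨pc_le_log n hn H hW hH D hD, ?_⟩⟩
  · exact (pc_le_log_forest n hn H hacyc hW hH).trans (le_of_eq (by ring))
  have hD1 : 1 ≤ D := by
    obtain ⟨a, b, hab⟩ := hH
    have h1 : 0 < (H.neighborSet a).ncard := (Set.ncard_pos (Set.toFinite _)).mpr ⟨b, hab⟩
    exact h1.trans_le (hD a)
  exact pEt_le n (by omega) H hW D hD1 hD

end Vale.Agent.Results.P064.ThresholdBounds
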